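import Vale.Agent.H13.Kakeya.Lip

namespace Vale.Agent.Results.P127.LipschitzSelection

open MeasureTheory Set
open scoped NNReal

/-- If the segments `a e + [0,1] e` of a set `K` can be chosen so that their positions `a e`
depend in a Lipschitz way on the direction `e`, for the directions `e` in a set `V ⊆ S^{n-1}`
of positive surface measure (i.e. the cone over `V` has positive Lebesgue measure), then `K`
has positive Lebesgue measure, and so Hausdorff dimension `n`. In particular this holds for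
every Kakeya set with a selection `e ↦ a e` of positions that is Lipschitz on the sphere. -/
theorem result (n : ℕ) (hn : 1 ≤ n) :
    (∀ (K V : Set (EuclideanSpace ℝ (Fin n)))
        (a : EuclideanSpace ℝ (Fin n) → EuclideanSpace ℝ (Fin n)) (C : ℝ≥0),
      (∀ e ∈ V, ‖e‖ = 1) → LipschitzOnWith C a V →
      0 < volume {x : EuclideanSpace ℝ (Fin n) | ∃ e ∈ V, ∃ t ∈ Ioo (0:ℝ) 1, x = t • e} →
      (∀ e ∈ V, ∀ t ∈ Icc (0:ℝ) 1, a e + t • e ∈ K) →
      0 < volume K ∧ dimH K = n) ∧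
    (∀ (K : Set (EuclideanSpace ℝ (Fin n)))
        (a : EuclideanSpace ℝ (Fin n) → EuclideanSpace ℝ (Fin n)) (C : ℝ≥0),
      LipschitzOnWith C a {e | ‖e‖ = 1} →
      (∀ e : EuclideanSpace ℝ (Fin n), ‖e‖ = 1 → ∀ t ∈ Icc (0:ℝ) 1, a e + t • e ∈ K) →
      0 < volume K ∧ dimH K = n) := by
  have h1 : ∀ (K V : Set (EuclideanSpace ℝ (Fin n)))
        (a : EuclideanSpace ℝ (Fin n) → EuclideanSpace ℝ (Fin n)) (C : ℝ≥0),
      (∀ e ∈ V, ‖e‖ = 1) → LipschitzOnWith C a V →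
      0 < volume {x : EuclideanSpace ℝ (Fin n) | ∃ e ∈ V, ∃ t ∈ Ioo (0:ℝ) 1, x = t • e} →
      (∀ e ∈ V, ∀ t ∈ Icc (0:ℝ) 1, a e + t • e ∈ K) →
      0 < volume K ∧ dimH K = n := by
    intro K V a C hV ha hpos hK
    have h := Vale.Agent.H13.Kakeya.main_pos volume ha hpos hV hK
    refine ⟨h, ?_⟩
    have h2 := Vale.Agent.H13.Kakeya.dimH_of_pos volume h
    rw [h2]
    simp
  refine ⟨h1, ?_⟩
  intro K a C ha hK
  apply h1 K {e | ‖e‖ = 1} a C (fun e he => he) ha _ hK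
  have hne : Nonempty (Fin n) := ⟨⟨0, by omega⟩⟩
  have h2 : Metric.ball (0 : EuclideanSpace ℝ (Fin n)) 1 \ {0} ⊆
      {x : EuclideanSpace ℝ (Fin n) | ∃ e ∈ {e : EuclideanSpace ℝ (Fin n) | ‖e‖ = 1},
        ∃ t ∈ Ioo (0:ℝ) 1, x = t • e} := by
    rintro x ⟨hx, hx0⟩
    have hx0' : x ≠ 0 := hx0
    have hnx : 0 < ‖x‖ := norm_pos_iff.2 hx0'
    rw [mem_ball_zero_iff] at hx
    refine ⟨‖x‖⁻¹ • x, ?_, ‖x‖, ⟨hnx, hx⟩, ?_⟩
    · show ‖‖x‖⁻¹ • x‖ = 1
      rw [norm_smul, norm_inv, norm_norm, inv_mul_cancel₀ hnx.ne']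
    · rw [smul_smul, mul_inv_cancel₀ hnx.ne', one_smul]
  refine lt_of_lt_of_le ?_ (measure_mono h2)
  have h3 : volume ({0} : Set (EuclideanSpace ℝ (Fin n))) = 0 := by
    simp
  rw [measure_sdiff_null h3]
  exact Metric.measure_ball_pos volume _ one_pos

end Vale.Agent.Results.P127.LipschitzSelection
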